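import Mathlib.Analysis.InnerProductSpace.ProdL2

/-!
# The product of two unit spheres
-/

namespace Vale.Agent.P220.R2.H562.S

/-- The product of the unit sphere of `V` with itself, in the orthogonal sum of two copies of
`V`. -/
def TwoSph (V : Type) [NormedAddCommGroup V] [InnerProductSpace ℝ V] : Set (WithLp 2 (V × V)) :=
  {x | ‖x.fst‖ = 1 ∧ ‖x.snd‖ = 1}

end Vale.Agent.P220.R2.H562.S
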