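import Vale.Agent.P220.R2.H180.Fix

/-!
# Row T: pull back of a compact submanifold along a linear embedding
-/

open Set Filter Topology
open scoped ContDiff

namespace Vale.Agent.P220.R2.H562.S

open H57 H180

/-- ROW T. pull back of a compact submanifold along a linear embedding whose image contains it -/
theorem row_T {V W : Type} [NormedAddCommGroup V] [NormedSpace ℝ V] [FiniteDimensional ℝ V]
    [NormedAddCommGroup W] [NormedSpace ℝ W] [FiniteDimensional ℝ W] {k : ℕ} {S : Set W}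
    (ι : V →L[ℝ] W) (κ : W →L[ℝ] V) (hκ : ∀ x, κ (ι x) = x) (hS : IsSubmanifold k S)
    (cS : IsCompact S) (hsub : ∀ x ∈ S, ι (κ x) = x) : IsSubmanifold k (ι ⁻¹' S) := by
  obtain ⟨U, ρ, hρ, hk⟩ := exists_ret hS cS
  intro x hx
  have hx' : ι x ∈ S := hx
  have h : LocRet (ι ⁻¹' S) x (fun y => κ (ρ (ι y))) := by
    refine ⟨hx, κ.contDiff.comp (hρ.smooth.comp ι.contDiff), ?_, ?_⟩
    · have h1 : ∀ᶠ y in 𝓝 x, ι y ∈ U :=
        ι.continuous.continuousAt (hρ.isOpen.mem_nhds (hρ.sub hx'))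
      filter_upwards [h1] with y hy
      show ι (κ (ρ (ι y))) ∈ S
      rw [hsub _ (hρ.maps _ hy)]
      exact hρ.maps _ hy
    · refine Eventually.of_forall fun y hy => ?_
      show κ (ρ (ι y)) = y
      rw [hρ.fix _ hy, hκ]
  have hder : HasFDerivAt ρ (fderiv ℝ ρ (ι x)) (ι x) :=
    (hρ.smooth.differentiable (by simp) _).hasFDerivAt
  have hD : fderiv ℝ (fun y => κ (ρ (ι y))) x = κ.comp ((fderiv ℝ ρ (ι x)).comp ι) :=
    (κ.hasFDerivAt.comp x (hder.comp x ι.hasFDerivAt)).fderiv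
  have hE : ∀ w, ι (κ (fderiv ℝ ρ (ι x) w)) = fderiv ℝ ρ (ι x) w := by
    have h1 : HasFDerivAt (fun y => ι (κ (ρ y))) ((ι.comp κ).comp (fderiv ℝ ρ (ι x))) (ι x) :=
      (ι.comp κ).hasFDerivAt.comp (ι x) hder
    have h2 : (fun y => ι (κ (ρ y))) =ᶠ[𝓝 (ι x)] ρ := by
      filter_upwards [hρ.isOpen.mem_nhds (hρ.sub hx')] with y hy using hsub _ (hρ.maps _ hy)
    have h3 := h1.unique (hder.congr_of_eventuallyEq h2)
    exact fun w => congrArg (fun C => C w) h3
  have hinj : Function.Injective (ι : V →ₗ[ℝ] W) := fun a b hab => by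
    have := congrArg κ hab
    simpa [hκ] using this
  have hmap : (Tn (fun y => κ (ρ (ι y))) x).map (ι : V →ₗ[ℝ] W) = Tn ρ (ι x) := by
    ext w
    constructor
    · rintro ⟨v, hv, rfl⟩
      have hv' : fderiv ℝ (fun y => κ (ρ (ι y))) x v = v := hv
      rw [hD] at hv'
      have h1 : κ (fderiv ℝ ρ (ι x) (ι v)) = v := hv'
      show fderiv ℝ ρ (ι x) (ι v) = ι v
      rw [← hE, h1]
    · intro hw
      have hw' : fderiv ℝ ρ (ι x) w = w := hw
      have h1 : ι (κ w) = w := by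
        have := hE w
        rwa [hw'] at this
      refine ⟨κ w, ?_, h1⟩
      show fderiv ℝ (fun y => κ (ρ (ι y))) x (κ w) = κ w
      rw [hD]
      show κ (fderiv ℝ ρ (ι x) (ι (κ w))) = κ w
      rw [h1, hw']
  have hfin : Module.finrank ℝ (Tn (fun y => κ (ρ (ι y))) x) = k := by
    rw [← hk (ι x) hx', ← hmap]
    exact (Submodule.equivMapOfInjective (ι : V →ₗ[ℝ] W) hinj _).finrank_eq
  obtain ⟨P, hP, hP2⟩ := exists_projection (Tn (fun y => κ (ρ (ι y))) x)
  obtain ⟨Θ, h1, h2, h3, h4, -, -⟩ := h.exists_chart hP hP2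
  exact ⟨Θ, _, h1, h2, h3, hfin, h4⟩

end Vale.Agent.P220.R2.H562.S
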